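import Mathlib
import Crest.Prelude.Def_AsymptoticConvexity

/-!
General facts on weakly null sequences and asymptotically-uniformly-convex (AUC) renormings,
in a raw normed space `X` (no bundled record), used for row 125.

Main results:
* `WeaklyNull.tendsto_of_finiteDimensional` : weakly null ⟹ norm null in finite dimension.
* `WeaklyNull.eventually_near_submodule` : a weakly null sequence is eventually `ε`-close to any
  closed finite-codimensional submodule.
* `weaklyNull_of_sign_sums` : a Bessel-type criterion for weak nullity.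
* `aucSeq` : sequential consequence of the AUC condition at one parameter.
* `no_auc_of_children` : "one level" criterion: no equivalent norm is AUC.
-/

open Filter Topology

namespace Crest.Agent.Helper51

variable {X : Type*} [NormedAddCommGroup X] [NormedSpace ℝ X]

/-- A sequence is weakly null: every continuous linear functional tends to `0` along it. -/
def WeaklyNull (w : ℕ → X) : Prop :=
  ∀ φ : X →L[ℝ] ℝ, Tendsto (fun k => φ (w k)) atTop (𝓝 0)

theorem WeaklyNull.tendsto_of_finiteDimensional [FiniteDimensional ℝ X] {w : ℕ → X}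
    (hw : WeaklyNull w) : Tendsto w atTop (𝓝 0) := by
  let e : X ≃L[ℝ] (Fin (Module.finrank ℝ X) → ℝ) :=
    ContinuousLinearEquiv.ofFinrankEq (by simp)
  have h1 : Tendsto (fun k => e (w k)) atTop (𝓝 0) := by
    rw [tendsto_pi_nhds]
    intro i
    have := hw ((ContinuousLinearMap.proj (R := ℝ) (φ := fun _ : Fin (Module.finrank ℝ X) => ℝ) i).comp
      (e : X →L[ℝ] (Fin (Module.finrank ℝ X) → ℝ)))
    simpa using this
  have h2 : Tendsto (fun k => e.symm (e (w k))) atTop (𝓝 (e.symm 0)) :=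
    (e.symm.continuous.tendsto 0).comp h1
  simpa using h2

/-- A weakly null sequence with norms bounded below cannot live in a finite-dimensional space. -/
theorem WeaklyNull.not_finiteDimensional {w : ℕ → X} (hw : WeaklyNull w) {κ : ℝ} (hκ : 0 < κ)
    (hnorm : ∀ k, κ ≤ ‖w k‖) : ¬ FiniteDimensional ℝ X := by
  intro hfd
  have h := hw.tendsto_of_finiteDimensional
  have h' : Tendsto (fun k => ‖w k‖) atTop (𝓝 0) := by
    simpa using h.norm
  have := (h'.eventually (gt_mem_nhds hκ)).exists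
  obtain ⟨k, hk⟩ := this
  exact absurd (hnorm k) (not_le.mpr hk)

theorem WeaklyNull.eventually_near_submodule {w : ℕ → X} (hw : WeaklyNull w) (S : Submodule ℝ X)
    (hS : IsClosed (S : Set X)) (hfd : FiniteDimensional ℝ (X ⧸ S)) {ε : ℝ} (hε : 0 < ε) :
    ∀ᶠ k in atTop, ∃ y ∈ S, ‖w k - y‖ < ε := by
  have : IsClosed (S : Set X) := hS
  have hq : WeaklyNull (fun k => S.mkQL (w k)) := by
    intro ψ
    exact hw (ψ.comp S.mkQL)
  have h := hq.tendsto_of_finiteDimensional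
  have h' : Tendsto (fun k => ‖S.mkQL (w k)‖) atTop (𝓝 0) := by
    simpa using h.norm
  filter_upwards [h'.eventually (gt_mem_nhds (half_pos hε))] with k hk
  obtain ⟨m, hm, hm'⟩ := Submodule.Quotient.norm_mk_lt (S.mkQL (w k)) (half_pos hε)
  refine ⟨w k - m, ?_, ?_⟩
  · have h1 : (Submodule.Quotient.mk m : X ⧸ S) = Submodule.Quotient.mk (w k) := by
      simpa using hm
    have h2 : m - w k ∈ S := (Submodule.Quotient.eq S).mp h1
    have h3 : w k - m = -(m - w k) := by abel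
    rw [h3]; exact S.neg_mem h2
  · have : w k - (w k - m) = m := by abel
    rw [this]; linarith

/-- Bessel-type criterion: if all signed finite sums of `w` have square norm at most `C * card`,
then `w` is weakly null. -/
theorem weaklyNull_of_sign_sums (w : ℕ → X) (C : ℝ)
    (h : ∀ (A : Finset ℕ) (σ : ℕ → ℝ), (∀ k, σ k = 1 ∨ σ k = -1) →
      ‖∑ k ∈ A, σ k • w k‖ ^ 2 ≤ C * A.card) : WeaklyNull w := by
  intro φ
  by_contra hcon
  -- there is ε > 0 with |φ (w k)| ≥ ε infinitely often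
  rw [Metric.tendsto_atTop] at hcon
  push Not at hcon
  obtain ⟨ε, hε, hfreq⟩ := hcon
  have hinf : Set.Infinite {k : ℕ | ε ≤ |φ (w k)|} := by
    rw [Set.infinite_iff_exists_gt]
    intro n
    obtain ⟨k, hk, hk'⟩ := hfreq (n + 1)
    refine ⟨k, ?_, by omega⟩
    simpa [Real.dist_eq] using hk'
  -- choose n with n * ε^2 > ‖φ‖^2 * C
  obtain ⟨n, hn⟩ := exists_nat_gt (‖φ‖ ^ 2 * C / ε ^ 2)
  obtain ⟨A, hA, hAcard⟩ := hinf.exists_subset_card_eq (n + 1)
  set σ : ℕ → ℝ := fun k => if 0 ≤ φ (w k) then 1 else -1 with hσ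
  have hσ' : ∀ k, σ k = 1 ∨ σ k = -1 := by
    intro k; simp only [hσ]; split_ifs <;> simp
  have hb := h A σ hσ'
  have h1 : φ (∑ k ∈ A, σ k • w k) = ∑ k ∈ A, |φ (w k)| := by
    rw [map_sum]
    refine Finset.sum_congr rfl fun k _ => ?_
    simp only [map_smul, smul_eq_mul, hσ]
    split_ifs with hk
    · rw [abs_of_nonneg hk]; ring
    · rw [abs_of_neg (not_le.mp hk)]; ring
  have h2 : ((n : ℝ) + 1) * ε ≤ ∑ k ∈ A, |φ (w k)| := by
    have : ∑ _k ∈ A, ε ≤ ∑ k ∈ A, |φ (w k)| :=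
      Finset.sum_le_sum fun k hk => hA hk
    simpa [hAcard, Finset.sum_const] using this
  have h3 : |φ (∑ k ∈ A, σ k • w k)| ≤ ‖φ‖ * ‖∑ k ∈ A, σ k • w k‖ := by
    simpa using φ.le_opNorm (∑ k ∈ A, σ k • w k)
  have h4 : ((n : ℝ) + 1) * ε ≤ ‖φ‖ * ‖∑ k ∈ A, σ k • w k‖ := by
    rw [h1] at h3
    exact h2.trans ((le_abs_self _).trans h3)
  have h5 : (((n : ℝ) + 1) * ε) ^ 2 ≤ ‖φ‖ ^ 2 * (C * ((n : ℝ) + 1)) := by
    have hpos : 0 ≤ ((n : ℝ) + 1) * ε := by positivity
    calc (((n : ℝ) + 1) * ε) ^ 2 ≤ (‖φ‖ * ‖∑ k ∈ A, σ k • w k‖) ^ 2 :=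
          pow_le_pow_left₀ hpos h4 2
      _ = ‖φ‖ ^ 2 * ‖∑ k ∈ A, σ k • w k‖ ^ 2 := by ring
      _ ≤ ‖φ‖ ^ 2 * (C * ((n : ℝ) + 1)) := by
          apply mul_le_mul_of_nonneg_left _ (by positivity)
          simpa [hAcard] using hb
  have h6 : ((n : ℝ) + 1) * ε ^ 2 ≤ ‖φ‖ ^ 2 * C := by
    have hn1 : (0 : ℝ) < (n : ℝ) + 1 := by positivity
    have : ((n : ℝ) + 1) * (((n : ℝ) + 1) * ε ^ 2) ≤ ((n : ℝ) + 1) * (‖φ‖ ^ 2 * C) := by
      nlinarith [h5]
    exact le_of_mul_le_mul_left this hn1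
  have h7 : ‖φ‖ ^ 2 * C < (n : ℝ) * ε ^ 2 := by
    have hε2 : 0 < ε ^ 2 := by positivity
    rwa [div_lt_iff₀ hε2] at hn
  nlinarith [sq_nonneg ε]


/-- The AUC condition at parameter `s` with constant `c`, for a raw function `N`: for every
`N`-unit `x` there is a closed finite-codimensional submodule `S` such that
`c ≤ N (x + s • y) - 1` for all `N`-unit `y ∈ S`. -/
def AUCAt (N : X → ℝ) (s c : ℝ) : Prop :=
  ∀ x : X, N x = 1 → ∃ S : Submodule ℝ X, IsClosed (S : Set X) ∧ FiniteDimensional ℝ (X ⧸ S) ∧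
    ∀ y ∈ S, N y = 1 → c ≤ N (x + s • y) - 1

/-- Sequential form of the AUC condition: along a weakly null sequence of `N`-size at least
`2 s`, the norm of `x + w k` is eventually at least `1 + c / 2`. -/
theorem aucSeq {N : X → ℝ} (hsub : ∀ x y : X, N (x + y) ≤ N x + N y)
    (hhom : ∀ (c : ℝ) (x : X), N (c • x) = |c| * N x) {b : ℝ} (hub : ∀ x : X, N x ≤ b * ‖x‖)
    {s c : ℝ} (hs : 0 < s) (hc : 0 < c) (hA : AUCAt N s c)
    {x : X} (hx : N x = 1) {w : ℕ → X} (hw : WeaklyNull w) (hwN : ∀ k, 2 * s ≤ N (w k)) :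
    ∀ᶠ k in atTop, 1 + c / 2 ≤ N (x + w k) := by
  obtain ⟨S, hScl, hSfd, hS⟩ := hA x hx
  set b' := max b 1 with hb'
  have hb'pos : 0 < b' := lt_of_lt_of_le one_pos (le_max_right _ _)
  have hub' : ∀ x : X, N x ≤ b' * ‖x‖ := fun x =>
    (hub x).trans (mul_le_mul_of_nonneg_right (le_max_left _ _) (norm_nonneg _))
  set ε := min s (c / 2) / b' with hε
  have hεpos : 0 < ε := div_pos (lt_min hs (half_pos hc)) hb'pos
  filter_upwards [hw.eventually_near_submodule S hScl hSfd hεpos] with k hk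
  obtain ⟨y, hyS, hy⟩ := hk
  have h1 : N (w k - y) ≤ min s (c / 2) := by
    calc N (w k - y) ≤ b' * ‖w k - y‖ := hub' _
      _ ≤ b' * ε := mul_le_mul_of_nonneg_left hy.le hb'pos.le
      _ = min s (c / 2) := by rw [hε]; field_simp
  have hNneg : ∀ z : X, N (-z) = N z := fun z => by
    have := hhom (-1) z; simpa using this
  have h2 : s ≤ N y := by
    have h21 : N (w k) ≤ N y + N (w k - y) := by
      have := hsub y (w k - y); simpa using this
    have h22 := hwN k
    linarith [min_le_left s (c / 2)]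
  have hrpos : 0 < N y := lt_of_lt_of_le hs h2
  have hy'S : (N y)⁻¹ • y ∈ S := S.smul_mem _ hyS
  have hNy' : N ((N y)⁻¹ • y) = 1 := by
    rw [hhom, abs_of_pos (inv_pos.mpr hrpos)]; field_simp
  have h3 := hS _ hy'S hNy'
  have hlam0 : 0 < s / N y := div_pos hs hrpos
  have hlam1 : s / N y ≤ 1 := (div_le_one hrpos).mpr h2
  have h4 : x + s • (N y)⁻¹ • y = (1 - s / N y) • x + (s / N y) • (x + y) := by
    rw [smul_add, sub_smul, one_smul, smul_smul, div_eq_mul_inv]; abel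
  have h5 : N (x + s • (N y)⁻¹ • y) ≤ (1 - s / N y) * 1 + (s / N y) * N (x + y) := by
    rw [h4]
    calc N ((1 - s / N y) • x + (s / N y) • (x + y))
        ≤ N ((1 - s / N y) • x) + N ((s / N y) • (x + y)) := hsub _ _
      _ = (1 - s / N y) * N x + (s / N y) * N (x + y) := by
          rw [hhom, hhom, abs_of_nonneg (by linarith), abs_of_pos hlam0]
      _ = _ := by rw [hx]
  have h6 : 1 + c ≤ N (x + y) := by
    have h61 : c ≤ (s / N y) * (N (x + y) - 1) := by linarith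
    nlinarith
  have h7 : N (x + y) ≤ N (x + w k) + N (w k - y) := by
    have h71 := hsub (x + w k) (y - w k)
    have e : x + w k + (y - w k) = x + y := by abel
    rw [e] at h71
    have e2 : N (y - w k) = N (w k - y) := by
      rw [← hNneg]; congr 1; abel
    linarith
  linarith [min_le_right s (c / 2)]

/-- "One level" criterion: a bounded family `z` in which every member has a sequence of other
members whose differences from it are weakly null and of norm at least `κ > 0` rules out every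
equivalent AUC norm. -/
theorem no_auc_of_children {I : Type*} [Nonempty I] (z : I → X) {κ : ℝ} (hκ : 0 < κ)
    (hch : ∀ i, ∃ j : ℕ → I, WeaklyNull (fun k => z (j k) - z i) ∧ ∀ k, κ ≤ ‖z (j k) - z i‖)
    (hz : ∀ i, ‖z i‖ ≤ 1)
    {N : X → ℝ} (hsub : ∀ x y : X, N (x + y) ≤ N x + N y)
    (hhom : ∀ (c : ℝ) (x : X), N (c • x) = |c| * N x) {a b : ℝ} (ha : 0 < a)
    (hlb : ∀ x : X, a * ‖x‖ ≤ N x) (hub : ∀ x : X, N x ≤ b * ‖x‖)
    (hAUC : ∀ t : ℝ, 0 < t → ∃ c : ℝ, 0 < c ∧ AUCAt N t c) : False := by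
  have hbdd : BddAbove (Set.range fun i => N (z i)) := by
    refine ⟨max b 0, ?_⟩
    rintro _ ⟨i, rfl⟩
    calc N (z i) ≤ b * ‖z i‖ := hub _
      _ ≤ max b 0 * ‖z i‖ := mul_le_mul_of_nonneg_right (le_max_left _ _) (norm_nonneg _)
      _ ≤ max b 0 * 1 := mul_le_mul_of_nonneg_left (hz i) (le_max_right _ _)
      _ = max b 0 := mul_one _
  have hle : ∀ i, N (z i) ≤ ⨆ i, N (z i) := fun i => le_ciSup hbdd i
  have hRpos : 0 < ⨆ i, N (z i) := by
    obtain ⟨i₀⟩ := ‹Nonempty I›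
    obtain ⟨j, -, hj⟩ := hch i₀
    have h0 := hj 0
    have h1 : ‖z (j 0) - z i₀‖ ≤ ‖z (j 0)‖ + ‖z i₀‖ := norm_sub_le _ _
    have h2 : a * ‖z (j 0)‖ ≤ ⨆ i, N (z i) := (hlb _).trans (hle _)
    have h3 : a * ‖z i₀‖ ≤ ⨆ i, N (z i) := (hlb _).trans (hle _)
    by_contra hneg
    push Not at hneg
    have h4 : a * κ ≤ a * (‖z (j 0)‖ + ‖z i₀‖) :=
      mul_le_mul_of_nonneg_left (h0.trans h1) ha.le
    have h5 : 0 < a * κ := mul_pos ha hκ
    linarith
  set R := ⨆ i, N (z i) with hR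
  have hspos : 0 < a * κ / (2 * R) := by positivity
  obtain ⟨c, hc, hA⟩ := hAUC _ hspos
  have hlt : R / (1 + c / 2) < R := by
    rw [div_lt_iff₀ (by positivity)]; nlinarith
  obtain ⟨i, hi⟩ := exists_lt_of_lt_ciSup hlt
  have hNi : 0 < N (z i) := lt_trans (by positivity) hi
  obtain ⟨j, hjw, hjn⟩ := hch i
  have hNx : N ((N (z i))⁻¹ • z i) = 1 := by
    rw [hhom, abs_of_pos (inv_pos.mpr hNi)]; field_simp
  have hww : WeaklyNull (fun k => (N (z i))⁻¹ • (z (j k) - z i)) := by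
    intro φ
    have := (hjw φ).const_mul (N (z i))⁻¹
    simpa [map_smul] using this
  have hwN : ∀ k, 2 * (a * κ / (2 * R)) ≤ N ((N (z i))⁻¹ • (z (j k) - z i)) := by
    intro k
    rw [hhom, abs_of_pos (inv_pos.mpr hNi)]
    have h1 : a * κ ≤ N (z (j k) - z i) :=
      (mul_le_mul_of_nonneg_left (hjn k) ha.le).trans (hlb _)
    have h2 : 2 * (a * κ / (2 * R)) = a * κ / R := by field_simp
    rw [h2, div_le_iff₀ hRpos]
    have h3 : 0 ≤ (N (z i))⁻¹ * N (z (j k) - z i) :=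
      mul_nonneg (inv_pos.mpr hNi).le (le_trans (by positivity) h1)
    calc a * κ ≤ N (z (j k) - z i) := h1
      _ = (N (z i))⁻¹ * N (z (j k) - z i) * N (z i) := by field_simp
      _ ≤ (N (z i))⁻¹ * N (z (j k) - z i) * R := mul_le_mul_of_nonneg_left (hle i) h3
  have hev := aucSeq hsub hhom hub hspos hc hA hNx hww hwN
  obtain ⟨k, hk⟩ := hev.exists
  have e : (N (z i))⁻¹ • z i + (N (z i))⁻¹ • (z (j k) - z i) = (N (z i))⁻¹ • z (j k) := by
    rw [← smul_add]; congr 1; abel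
  rw [e, hhom, abs_of_pos (inv_pos.mpr hNi)] at hk
  have h3 : (1 + c / 2) * N (z i) ≤ N (z (j k)) := by
    have h31 := mul_le_mul_of_nonneg_right hk hNi.le
    have h32 : (N (z i))⁻¹ * N (z (j k)) * N (z i) = N (z (j k)) := by field_simp
    linarith
  have h4 : R < (1 + c / 2) * N (z i) := by
    rw [div_lt_iff₀ (by positivity)] at hi; linarith
  linarith [hle (j k)]


open Crest.AnalysisR in
/-- Bridge to the Prelude record: the "one level" criterion for a `RealBanach` whose underlying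
normed structure is given by instances. -/
theorem not_isAUC_of_children {Y : Type} [NormedAddCommGroup Y] [NormedSpace ℝ Y]
    (hcomp : CompleteSpace Y) {I : Type*} [Nonempty I] (z : I → Y) {κ : ℝ} (hκ : 0 < κ)
    (hch : ∀ i, ∃ j : ℕ → I, WeaklyNull (fun k => z (j k) - z i) ∧ ∀ k, κ ≤ ‖z (j k) - z i‖)
    (hz : ∀ i, ‖z i‖ ≤ 1) (N : Y → ℝ)
    (hN : RealBanach.IsEquivNorm ⟨Y, inferInstance, inferInstance, hcomp⟩ N) :
    ¬ RealBanach.IsAUC ⟨Y, inferInstance, inferInstance, hcomp⟩ N := by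
  intro hA
  obtain ⟨hsub, hhom, a, b, ha, hab⟩ := hN
  refine no_auc_of_children z hκ hch hz hsub hhom ha (fun x => (hab x).1) (fun x => (hab x).2) ?_
  intro t ht
  obtain ⟨c, hc, h⟩ := hA t ht
  refine ⟨c, hc, fun x hx => ?_⟩
  obtain ⟨F, ⟨S, rfl, hcl, hfd⟩, hF⟩ := h x hx
  exact ⟨S, hcl, hfd, fun y hy => hF y hy⟩

end Crest.Agent.Helper51
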