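import Mathlib
import Crest.Prelude.Def_TreeProducts
import Crest.Agent.Helper51.WeakNull

/-!
Probability facts about path products of independent multipliers along the countably branching
tree (for S0169).
-/

open MeasureTheory ProbabilityTheory Filter Topology
open Crest.AnalysisR Crest.AnalysisR.TreeProduct

namespace Crest.Agent.Helper51

variable {Ω : Type} [MeasurableSpace Ω] {μ : Measure Ω} {ν : Measure ℝ} {W : List ℕ → Ω → ℝ}

/-- The set of nonempty suffixes of `v` (the non-root vertices on the root path of `v`). -/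
def sfx : List ℕ → Finset (List ℕ)
  | [] => ∅
  | a :: v => insert (a :: v) (sfx v)

lemma length_le_of_mem_sfx {u v : List ℕ} (h : u ∈ sfx v) : u.length ≤ v.length := by
  induction v with
  | nil => simp [sfx] at h
  | cons a v ih =>
    simp only [sfx, Finset.mem_insert] at h
    rcases h with rfl | h
    · exact le_rfl
    · exact (ih h).trans (by simp)

lemma cons_notMem_sfx (a : ℕ) (v : List ℕ) : a :: v ∉ sfx v := fun h => by
  have := length_le_of_mem_sfx h
  simp at this

lemma pathProduct_eq_prod (W : List ℕ → Ω → ℝ) (v : List ℕ) :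
    pathProduct W v = ∏ u ∈ sfx v, W u := by
  induction v with
  | nil => funext z; simp [pathProduct, sfx]
  | cons a v ih =>
    rw [sfx, Finset.prod_insert (cons_notMem_sfx a v), ← ih]
    funext z
    simp [pathProduct, mul_comm]

lemma measurable_pathProduct (hW : ∀ v, Measurable (W v)) (v : List ℕ) :
    Measurable (pathProduct W v) := by
  rw [pathProduct_eq_prod]
  have h := Finset.measurable_prod (sfx v) (fun u _ => hW u)
  have e : (∏ u ∈ sfx v, W u) = fun a => ∏ u ∈ sfx v, W u a := by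
    funext a; simp
  rw [e]; exact h

lemma indep_pathProduct_W (hW : IsRealization ν μ W) (a : ℕ) (v : List ℕ) :
    IndepFun (pathProduct W v) (W (a :: v)) μ := by
  rw [pathProduct_eq_prod]
  exact hW.2.1.indepFun_finsetProd_of_notMem hW.1 (cons_notMem_sfx a v)

lemma indep_pathProduct_tuple (hW : IsRealization ν μ W) (v : List ℕ) (T : Finset (List ℕ))
    (hT : ∀ t ∈ T, v.length < t.length) :
    IndepFun (pathProduct W v) (fun ω (i : T) => W i ω) μ := by
  have hdisj : Disjoint (sfx v) T := by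
    rw [Finset.disjoint_left]
    intro u hu hut
    exact absurd (length_le_of_mem_sfx hu) (not_le.mpr (hT u hut))
  have h := hW.2.1.indepFun_finset (sfx v) T hdisj hW.1
  have hφ : Measurable (fun x : (sfx v) → ℝ => ∏ i, x i) := by fun_prop
  have h2 := h.comp hφ measurable_id
  have e : pathProduct W v = (fun x : (sfx v) → ℝ => ∏ i, x i) ∘ fun a (i : sfx v) => W i a := by
    rw [pathProduct_eq_prod]
    funext ω
    simp only [Function.comp, Finset.prod_apply]
    exact (Finset.prod_coe_sort (sfx v) (fun u => W u ω)).symm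
  rw [e]
  exact h2

lemma indep_pathProduct_D (hW : IsRealization ν μ W) (v : List ℕ) (A : Finset ℕ) (σ : ℕ → ℝ) :
    IndepFun (pathProduct W v) (fun ω => ∑ k ∈ A, σ k * (W (k :: v) ω - 1)) μ := by
  have h := indep_pathProduct_tuple hW v (A.image (fun k => k :: v)) (by
    intro t ht
    simp only [Finset.mem_image] at ht
    obtain ⟨k, -, rfl⟩ := ht
    simp)
  have hψ : Measurable (fun x : (A.image (fun k => k :: v) : Finset (List ℕ)) → ℝ =>
      ∑ t, σ (t.1.headI) * (x t - 1)) := by fun_prop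
  have h2 := h.comp measurable_id hψ
  have e : (fun ω => ∑ k ∈ A, σ k * (W (k :: v) ω - 1)) =
      (fun x : (A.image (fun k => k :: v) : Finset (List ℕ)) → ℝ =>
        ∑ t, σ (t.1.headI) * (x t - 1)) ∘ fun ω i => W i ω := by
    funext ω
    simp only [Function.comp]
    rw [Finset.sum_coe_sort (A.image (fun k => k :: v)) (fun t => σ t.headI * (W t ω - 1)),
      Finset.sum_image]
    · simp
    · intro a _ b _ hab
      simpa using hab
  rw [e]
  exact h2


section Facts

variable [IsProbabilityMeasure μ] [IsProbabilityMeasure ν]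

lemma integrable_id_of_sq (hm2 : Integrable (fun x : ℝ => x ^ 2) ν) :
    Integrable (fun x : ℝ => x) ν := by
  have h : MemLp (fun x : ℝ => x) 2 ν :=
    (memLp_two_iff_integrable_sq measurable_id.aestronglyMeasurable).mpr hm2
  exact h.integrable one_le_two

omit [IsProbabilityMeasure μ] [IsProbabilityMeasure ν] in
lemma integrable_comp_W (hW : IsRealization ν μ W) {v : List ℕ} (hv : v ≠ []) {f : ℝ → ℝ}
    (hf : Integrable f ν) : Integrable (fun ω => f (W v ω)) μ := by
  have hmap := hW.2.2 v hv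
  rw [← hmap] at hf
  exact (integrable_map_measure hf.aestronglyMeasurable (hW.1 v).aemeasurable).mp hf

omit [IsProbabilityMeasure μ] [IsProbabilityMeasure ν] in
lemma integral_comp_W (hW : IsRealization ν μ W) {v : List ℕ} (hv : v ≠ []) {f : ℝ → ℝ}
    (hf : AEStronglyMeasurable f ν) : ∫ ω, f (W v ω) ∂μ = ∫ x, f x ∂ν := by
  have hmap := hW.2.2 v hv
  rw [← hmap] at hf ⊢
  exact (integral_map (hW.1 v).aemeasurable hf).symm

omit [IsProbabilityMeasure ν] in
lemma W_pos_ae (hW : IsRealization ν μ W) (hpos : ν (Set.Ioi 0) = 1) {v : List ℕ} (hv : v ≠ []) :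
    ∀ᵐ ω ∂μ, 0 < W v ω := by
  have hmap := hW.2.2 v hv
  have h1 : μ (W v ⁻¹' Set.Ioi 0) = 1 := by
    rw [← Measure.map_apply (hW.1 v) measurableSet_Ioi, hmap, hpos]
  have h2 : μ (W v ⁻¹' Set.Ioi 0)ᶜ = 0 :=
    (prob_compl_eq_zero_iff ((hW.1 v) measurableSet_Ioi)).mpr h1
  rw [ae_iff]
  exact h2

lemma pathProduct_facts (hW : IsRealization ν μ W) (hpos : ν (Set.Ioi 0) = 1)
    (hmean : ∫ x, x ∂ν = 1) (hm2 : Integrable (fun x : ℝ => x ^ 2) ν) (v : List ℕ) :
    Integrable (pathProduct W v) μ ∧ ∫ ω, pathProduct W v ω ∂μ = 1 ∧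
      ∀ᵐ ω ∂μ, 0 ≤ pathProduct W v ω := by
  induction v with
  | nil =>
    refine ⟨?_, ?_, ?_⟩
    · show Integrable (fun _ => (1 : ℝ)) μ
      exact integrable_const _
    · show ∫ _ω, (1 : ℝ) ∂μ = 1
      simp
    · exact Eventually.of_forall fun ω => by
        show (0 : ℝ) ≤ 1
        norm_num
  | cons a v ih =>
    obtain ⟨hi, hint, hnn⟩ := ih
    have hind := indep_pathProduct_W hW a v
    have hWi : Integrable (W (a :: v)) μ :=
      integrable_comp_W hW (List.cons_ne_nil a v) (integrable_id_of_sq hm2)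
    have hWint : ∫ ω, W (a :: v) ω ∂μ = 1 := by
      rw [← hmean]
      exact integral_comp_W hW (List.cons_ne_nil a v) (f := fun x => x)
        measurable_id.aestronglyMeasurable
    have e : pathProduct W (a :: v) = pathProduct W v * W (a :: v) := rfl
    refine ⟨?_, ?_, ?_⟩
    · rw [e]; exact hind.integrable_mul hi hWi
    · rw [e]
      have := hind.integral_mul_eq_mul_integral hi.aestronglyMeasurable hWi.aestronglyMeasurable
      rw [this, hint, hWint, one_mul]
    · filter_upwards [hnn, W_pos_ae hW hpos (List.cons_ne_nil a v)] with ω h1 h2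
      rw [e]; exact mul_nonneg h1 h2.le

/-- `κ = ∫ |x - 1| dν`. -/
noncomputable def kappa (ν : Measure ℝ) : ℝ := ∫ x, |x - 1| ∂ν

/-- `V = ∫ (x - 1)² dν`. -/
noncomputable def Vnu (ν : Measure ℝ) : ℝ := ∫ x, (x - 1) ^ 2 ∂ν

lemma kappa_pos (hnc : ∀ c : ℝ, ν ≠ Measure.dirac c)
    (hm2 : Integrable (fun x : ℝ => x ^ 2) ν) : 0 < kappa ν := by
  have hint : Integrable (fun x : ℝ => |x - 1|) ν :=
    ((integrable_id_of_sq hm2).sub (integrable_const 1)).abs
  have hnn : 0 ≤ kappa ν := integral_nonneg fun x => abs_nonneg _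
  rcases hnn.lt_or_eq with h | h
  · exact h
  · exfalso
    have h0 : (fun x : ℝ => |x - 1|) =ᵐ[ν] 0 :=
      (integral_eq_zero_iff_of_nonneg (fun x => abs_nonneg _) hint).mp h.symm
    have h1 : ∀ᵐ x ∂ν, x = 1 := by
      filter_upwards [h0] with x hx
      have : |x - 1| = 0 := hx
      rwa [abs_eq_zero, sub_eq_zero] at this
    have h1' : ν {x : ℝ | ¬ x = 1} = 0 := ae_iff.mp h1
    apply hnc 1
    ext s hs
    rw [Measure.dirac_apply' _ hs]
    by_cases h1s : (1 : ℝ) ∈ s
    · rw [Set.indicator_of_mem h1s]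
      have hsub : sᶜ ⊆ {x : ℝ | ¬ x = 1} := fun x hx (hx1 : x = 1) => hx (hx1 ▸ h1s)
      have : ν sᶜ = 0 := measure_mono_null hsub h1'
      simpa using (prob_compl_eq_zero_iff hs).mp this
    · rw [Set.indicator_of_notMem h1s]
      have hsub : s ⊆ {x : ℝ | ¬ x = 1} := fun x hx (hx1 : x = 1) => h1s (hx1 ▸ hx)
      exact measure_mono_null hsub h1'

lemma integral_abs_pathProduct (hW : IsRealization ν μ W) (hpos : ν (Set.Ioi 0) = 1)
    (hmean : ∫ x, x ∂ν = 1) (hm2 : Integrable (fun x : ℝ => x ^ 2) ν) (v : List ℕ) :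
    ∫ ω, |pathProduct W v ω| ∂μ = 1 := by
  obtain ⟨hi, hint, hnn⟩ := pathProduct_facts hW hpos hmean hm2 v
  rw [← hint]
  exact integral_congr_ae (by filter_upwards [hnn] with ω h; exact abs_of_nonneg h)

lemma integral_abs_child (hW : IsRealization ν μ W) (hpos : ν (Set.Ioi 0) = 1)
    (hmean : ∫ x, x ∂ν = 1) (hm2 : Integrable (fun x : ℝ => x ^ 2) ν) (v : List ℕ) (k : ℕ) :
    ∫ ω, |pathProduct W v ω * (W (k :: v) ω - 1)| ∂μ = kappa ν := by
  have hind := indep_pathProduct_W hW k v
  have h := hind.integral_fun_comp_mul_comp (f := fun x : ℝ => |x|) (g := fun x : ℝ => |x - 1|)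
    (measurable_pathProduct hW.1 v).aemeasurable (hW.1 _).aemeasurable
    (by fun_prop) (by fun_prop)
  simp only [abs_mul]
  rw [h, integral_abs_pathProduct hW hpos hmean hm2 v, one_mul]
  exact integral_comp_W hW (List.cons_ne_nil k v) (f := fun x => |x - 1|) (by fun_prop)


lemma integral_abs_signsum_sq_le (hW : IsRealization ν μ W) (hpos : ν (Set.Ioi 0) = 1)
    (hmean : ∫ x, x ∂ν = 1) (hm2 : Integrable (fun x : ℝ => x ^ 2) ν) (v : List ℕ)
    (A : Finset ℕ) (σ : ℕ → ℝ) (hσ : ∀ k, σ k = 1 ∨ σ k = -1) :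
    (∫ ω, |pathProduct W v ω * ∑ k ∈ A, σ k * (W (k :: v) ω - 1)| ∂μ) ^ 2
      ≤ Vnu ν * A.card := by
  have hind := indep_pathProduct_D hW v A σ
  have hXmeas : ∀ k, Measurable (fun ω => σ k * (W (k :: v) ω - 1)) := fun k =>
    ((hW.1 (k :: v)).sub_const 1).const_mul (σ k)
  have hDmeas : Measurable (fun ω => ∑ k ∈ A, σ k * (W (k :: v) ω - 1)) :=
    Finset.measurable_sum A fun k _ => hXmeas k
  have h := hind.integral_fun_comp_mul_comp (f := fun x : ℝ => |x|) (g := fun x : ℝ => |x|)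
    (measurable_pathProduct hW.1 v).aemeasurable hDmeas.aemeasurable (by fun_prop) (by fun_prop)
  simp only [abs_mul]
  rw [h, integral_abs_pathProduct hW hpos hmean hm2 v, one_mul]
  -- now `(∫ |D|)^2 ≤ V * card`
  set X : ℕ → Ω → ℝ := fun k ω => σ k * (W (k :: v) ω - 1) with hX
  have hW2 : ∀ k, MemLp (W (k :: v)) 2 μ := fun k =>
    (memLp_two_iff_integrable_sq (hW.1 _).aestronglyMeasurable).mpr
      (integrable_comp_W hW (List.cons_ne_nil k v) (f := fun x => x ^ 2) hm2)
  have hX2 : ∀ k, MemLp (X k) 2 μ := fun k => ((hW2 k).sub (memLp_const 1)).const_mul (σ k)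
  have hsum : (∑ k ∈ A, X k) = fun ω => ∑ k ∈ A, σ k * (W (k :: v) ω - 1) := by
    funext ω; simp [hX, Finset.sum_apply]
  have hD2 : MemLp (fun ω => ∑ k ∈ A, σ k * (W (k :: v) ω - 1)) 2 μ := by
    rw [← hsum]; exact memLp_finsetSum' A fun k _ => hX2 k
  -- step 1: `(∫ |D|)^2 ≤ ∫ D^2`
  have hv1 := variance_nonneg (fun ω => |∑ k ∈ A, σ k * (W (k :: v) ω - 1)|) μ
  have hDabs : MemLp (fun ω => |∑ k ∈ A, σ k * (W (k :: v) ω - 1)|) 2 μ := by
    simpa [Real.norm_eq_abs] using hD2.norm
  rw [variance_eq_sub hDabs] at hv1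
  have hsq : ∫ ω, ((fun ω => |∑ k ∈ A, σ k * (W (k :: v) ω - 1)|) ^ 2) ω ∂μ
      = ∫ ω, ((fun ω => ∑ k ∈ A, σ k * (W (k :: v) ω - 1)) ^ 2) ω ∂μ := by
    refine integral_congr_ae (Eventually.of_forall fun ω => ?_)
    simp [sq_abs]
  -- step 2: `∫ D^2 = Var D` since the mean vanishes
  have hWint : ∀ k, ∫ ω, W (k :: v) ω ∂μ = 1 := fun k => by
    rw [← hmean]
    exact integral_comp_W hW (List.cons_ne_nil k v) (f := fun x => x)
      measurable_id.aestronglyMeasurable
  have hWi : ∀ k, Integrable (W (k :: v)) μ := fun k => (hW2 k).integrable one_le_two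
  have hmeanD : ∫ ω, ∑ k ∈ A, σ k * (W (k :: v) ω - 1) ∂μ = 0 := by
    have hint : ∀ k ∈ A, Integrable (fun ω => σ k * (W (k :: v) ω - 1)) μ := fun k _ =>
      ((hWi k).sub (integrable_const 1)).const_mul (σ k)
    rw [integral_finsetSum A hint]
    refine Finset.sum_eq_zero fun k _ => ?_
    rw [integral_const_mul, integral_sub (hWi k) (integrable_const 1), hWint k]
    simp
  have hvarD := variance_eq_sub hD2
  rw [hmeanD] at hvarD
  -- step 3: variance of the sum
  have hpair : Set.Pairwise (↑A : Set ℕ) fun i j => X i ⟂ᵢ[μ] X j := by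
    intro i _ j _ hij
    have hne : i :: v ≠ j :: v := fun h => hij (by simpa using h)
    have := hW.2.1.indepFun hne
    exact this.comp (φ := fun x => σ i * (x - 1)) (ψ := fun x => σ j * (x - 1))
      (by fun_prop) (by fun_prop)
  have hvs := IndepFun.variance_sum (s := A) (fun k _ => hX2 k) hpair
  rw [hsum] at hvs
  have hVk : ∀ k, variance (X k) μ ≤ Vnu ν := by
    intro k
    refine (variance_le_expectation_sq (hX2 k).aestronglyMeasurable).trans (le_of_eq ?_)
    have hσ2 : σ k ^ 2 = 1 := by rcases hσ k with h | h <;> rw [h] <;> norm_num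
    have e1 : ∫ ω, (X k ^ 2) ω ∂μ = ∫ ω, (W (k :: v) ω - 1) ^ 2 ∂μ := by
      refine integral_congr_ae (Eventually.of_forall fun ω => ?_)
      simp only [hX, Pi.pow_apply, mul_pow, hσ2, one_mul]
    rw [e1]
    exact integral_comp_W hW (List.cons_ne_nil k v) (f := fun x => (x - 1) ^ 2) (by fun_prop)
  have hfin : ∑ k ∈ A, variance (X k) μ ≤ Vnu ν * A.card := by
    calc ∑ k ∈ A, variance (X k) μ ≤ ∑ _k ∈ A, Vnu ν := Finset.sum_le_sum fun k _ => hVk k
      _ = Vnu ν * A.card := by rw [Finset.sum_const, nsmul_eq_mul, mul_comm]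
  nlinarith [hv1, hsq, hvarD, hvs, hfin]

end Facts

end Crest.Agent.Helper51
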