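import Mathlib
import Crest.Prelude.Def_TreeProducts
import Crest.Agent.Helper51.WeakNull
import Crest.Agent.Helper51.TreeProd

/-!
The closed span of the path products in `L¹`: infinite-dimensional, no equivalent AUC norm
(the content of S0169).
-/

open MeasureTheory ProbabilityTheory Filter Topology
open Crest.AnalysisR Crest.AnalysisR.TreeProduct

namespace Crest.Agent.Helper51

variable {Ω : Type} [MeasurableSpace Ω] {μ : Measure Ω} {ν : Measure ℝ} {W : List ℕ → Ω → ℝ}

/-- The class of the path product at `v`, as an element of the product span. -/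
noncomputable def zE (hI : ∀ v, Integrable (pathProduct W v) μ) (v : List ℕ) :
    ↥(productSpan μ W) :=
  ⟨(hI v).toL1 (pathProduct W v),
    Submodule.le_topologicalClosure _ (Submodule.subset_span ⟨v, (hI v).coeFn_toL1⟩)⟩

lemma norm_zE (hI : ∀ v, Integrable (pathProduct W v) μ) (v : List ℕ) :
    ‖zE hI v‖ = ∫ ω, |pathProduct W v ω| ∂μ := by
  have : ‖zE hI v‖ = ‖(hI v).toL1 (pathProduct W v)‖ := rfl
  rw [this, L1.norm_of_fun_eq_integral_norm]
  simp [Real.norm_eq_abs]

lemma norm_signsum_zE (hI : ∀ v, Integrable (pathProduct W v) μ) (v : List ℕ) (A : Finset ℕ)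
    (σ : ℕ → ℝ) :
    ‖∑ k ∈ A, σ k • (zE hI (k :: v) - zE hI v)‖
      = ∫ ω, |pathProduct W v ω * ∑ k ∈ A, σ k * (W (k :: v) ω - 1)| ∂μ := by
  have h1 : ‖∑ k ∈ A, σ k • (zE hI (k :: v) - zE hI v)‖
      = ‖∑ k ∈ A, σ k • ((hI (k :: v)).toL1 (pathProduct W (k :: v))
          - (hI v).toL1 (pathProduct W v))‖ := by
    rw [Submodule.coe_norm]
    congr 1
    simp [zE]
  rw [h1, L1.norm_eq_integral_norm]
  refine integral_congr_ae ?_
  have hsum := Lp.coeFn_fun_finsetSum A (fun k => σ k • ((hI (k :: v)).toL1 (pathProduct W (k :: v))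
          - (hI v).toL1 (pathProduct W v)))
  have hk : ∀ k ∈ A, ∀ᵐ ω ∂μ,
      (σ k • ((hI (k :: v)).toL1 (pathProduct W (k :: v)) - (hI v).toL1 (pathProduct W v))
        : Lp ℝ 1 μ) ω = σ k * (pathProduct W (k :: v) ω - pathProduct W v ω) := by
    intro k _
    filter_upwards [Lp.coeFn_smul (σ k) ((hI (k :: v)).toL1 (pathProduct W (k :: v))
        - (hI v).toL1 (pathProduct W v)),
      Lp.coeFn_sub ((hI (k :: v)).toL1 (pathProduct W (k :: v))) ((hI v).toL1 (pathProduct W v)),
      (hI (k :: v)).coeFn_toL1, (hI v).coeFn_toL1] with ω h1 h2 h3 h4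
    rw [h1, Pi.smul_apply, h2, Pi.sub_apply, h3, h4, smul_eq_mul]
  have hall : ∀ᵐ ω ∂μ, ∀ k ∈ A,
      (σ k • ((hI (k :: v)).toL1 (pathProduct W (k :: v)) - (hI v).toL1 (pathProduct W v))
        : Lp ℝ 1 μ) ω = σ k * (pathProduct W (k :: v) ω - pathProduct W v ω) :=
    (ae_ball_iff A.countable_toSet).mpr hk
  filter_upwards [hsum, hall] with ω h1 h2
  rw [h1, Real.norm_eq_abs, Finset.sum_congr rfl h2, Finset.mul_sum]
  congr 1
  refine Finset.sum_congr rfl fun k _ => ?_
  have e : pathProduct W (k :: v) ω = pathProduct W v ω * W (k :: v) ω := rfl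
  rw [e]; ring


/-- The content of S0169: the closed span of the path products is infinite-dimensional and has
no equivalent asymptotically uniformly convex norm. -/
theorem S0169_main (ν : Measure ℝ) [IsProbabilityMeasure ν] (hpos : ν (Set.Ioi 0) = 1)
    (hnc : ∀ c : ℝ, ν ≠ Measure.dirac c) (hmean : ∫ x, x ∂ν = 1)
    (hm2 : Integrable (fun x : ℝ => x ^ 2) ν)
    (Ω : Type) [MeasurableSpace Ω] (μ : Measure Ω) [IsProbabilityMeasure μ]
    (W : List ℕ → Ω → ℝ) (hW : IsRealization ν μ W) :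
    ¬ FiniteDimensional ℝ (productSpan μ W) ∧
      ∀ N : (spanBanach μ W).X → ℝ, (spanBanach μ W).IsEquivNorm N →
        ¬ (spanBanach μ W).IsAUC N := by
  have hI : ∀ v, Integrable (pathProduct W v) μ := fun v =>
    (pathProduct_facts hW hpos hmean hm2 v).1
  have hκ : 0 < kappa ν := kappa_pos hnc hm2
  have hz : ∀ v, ‖zE hI v‖ ≤ 1 := fun v => by
    rw [norm_zE, integral_abs_pathProduct hW hpos hmean hm2 v]
  have hnorm : ∀ v k, kappa ν ≤ ‖zE hI (k :: v) - zE hI v‖ := by
    intro v k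
    have := norm_signsum_zE hI v {k} (fun _ => 1)
    simp only [Finset.sum_singleton, one_smul, one_mul] at this
    rw [this, integral_abs_child hW hpos hmean hm2 v k]
  have hwn : ∀ v, WeaklyNull (fun k => zE hI (k :: v) - zE hI v) := by
    intro v
    refine weaklyNull_of_sign_sums _ (Vnu ν) fun A σ hσ => ?_
    rw [norm_signsum_zE]
    exact integral_abs_signsum_sq_le hW hpos hmean hm2 v A σ hσ
  refine ⟨(hwn []).not_finiteDimensional hκ (hnorm []), fun N hN => ?_⟩
  exact not_isAUC_of_children _ (zE hI) hκ (fun v => ⟨fun k => k :: v, hwn v, hnorm v⟩) hz N hN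

end Crest.Agent.Helper51
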